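import Mathlib

/-!
# P252: the entire-graph affine Bernstein theorem for additively separable functions, all dimensions

If `u(x) = f_1(x_1) + ... + f_n(x_n)` on all of `ℝ^n` (each `f_i` of class `C^4`) has positive
definite Hessian and solves the affine maximal equation
`∑ U^{ij} ∂_{ij} (det D²u)^{-(n+1)/(n+2)} = 0`, then `u` is a quadratic polynomial with positive
definite quadratic part, i.e. its graph is an elliptic paraboloid.
-/

namespace Vale.Agent.Results.P252.SeparableBernstein

open Finset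

variable {n : ℕ}

/-- The derivative `∂g/∂x_i` of `g : ℝ^n → ℝ` at `x` (derivative along the `i`-th basis vector). -/
noncomputable def pd (i : Fin n) (g : (Fin n → ℝ) → ℝ) (x : Fin n → ℝ) : ℝ :=
  lineDeriv ℝ g x (Pi.single i 1)

/-- The Hessian matrix `(∂_i ∂_j g)(x)`. -/
noncomputable def hess (g : (Fin n → ℝ) → ℝ) (x : Fin n → ℝ) : Matrix (Fin n) (Fin n) ℝ :=
  Matrix.of fun i j => pd i (pd j g) x

lemma pd_slice (F : (Fin n → ℝ) → ℝ) (x : Fin n → ℝ) (i : Fin n) (G : ℝ → ℝ)
    (h : ∀ t : ℝ, F (x + t • Pi.single i (1 : ℝ)) = G (x i + t)) : pd i F x = deriv G (x i) := by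
  unfold pd lineDeriv
  simp_rw [h]
  rw [deriv_comp_const_add]
  simp

lemma shift_same (x : Fin n → ℝ) (j : Fin n) (t : ℝ) :
    (x + t • (Pi.single j (1 : ℝ) : Fin n → ℝ)) j = x j + t := by simp

lemma shift_ne (x : Fin n → ℝ) {i j : Fin n} (h : i ≠ j) (t : ℝ) :
    (x + t • (Pi.single j (1 : ℝ) : Fin n → ℝ)) i = x i := by simp [h]

lemma pd_sum (f : Fin n → ℝ → ℝ) (j : Fin n) (x : Fin n → ℝ) :
    pd j (fun y : Fin n → ℝ => ∑ i, f i (y i)) x = deriv (f j) (x j) := by
  rw [pd_slice _ x j (fun s => f j s + ∑ i ∈ univ.erase j, f i (x i))]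
  · rw [deriv_add_const]
  · intro t
    rw [← Finset.add_sum_erase univ _ (mem_univ j), shift_same]
    congr 1
    apply Finset.sum_congr rfl
    intro i hi
    rw [shift_ne x (Finset.ne_of_mem_erase hi)]

lemma pd_coord (G : ℝ → ℝ) (i j : Fin n) (x : Fin n → ℝ) :
    pd i (fun y : Fin n → ℝ => G (y j)) x = if i = j then deriv G (x j) else 0 := by
  split_ifs with h
  · subst h
    rw [pd_slice _ x i G]
    intro t
    rw [shift_same]
  · rw [pd_slice _ x i (fun _ => G (x j))]
    · simp
    · intro t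
      rw [shift_ne x (Ne.symm h)]

lemma hess_sum (f : Fin n → ℝ → ℝ) (x : Fin n → ℝ) :
    hess (fun y : Fin n → ℝ => ∑ i, f i (y i)) x
      = Matrix.diagonal (fun i => deriv (deriv (f i)) (x i)) := by
  ext i j
  unfold hess
  rw [Matrix.of_apply]
  have : pd j (fun y : Fin n → ℝ => ∑ i, f i (y i)) = fun y => deriv (f j) (y j) := by
    funext y; exact pd_sum f j y
  rw [this, pd_coord, Matrix.diagonal_apply]
  split_ifs with h
  · subst h; rfl
  · rfl

lemma pd_prod (φ : Fin n → ℝ → ℝ) (G : ℝ → ℝ) (i : Fin n) (x : Fin n → ℝ) :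
    pd i (fun y : Fin n → ℝ => G (y i) * ∏ j ∈ univ.erase i, φ j (y j)) x
      = deriv G (x i) * ∏ j ∈ univ.erase i, φ j (x j) := by
  rw [pd_slice _ x i (fun s => G s * ∏ j ∈ univ.erase i, φ j (x j))]
  · rw [deriv_mul_const_field]
  · intro t
    rw [shift_same]
    congr 1
    apply Finset.prod_congr rfl
    intro j hj
    rw [shift_ne x (Finset.ne_of_mem_erase hj)]

lemma hess_prod_diag (φ : Fin n → ℝ → ℝ) (i : Fin n) (x : Fin n → ℝ) :
    hess (fun y : Fin n → ℝ => ∏ j, φ j (y j)) x i i
      = deriv (deriv (φ i)) (x i) * ∏ j ∈ univ.erase i, φ j (x j) := by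
  unfold hess
  rw [Matrix.of_apply]
  have e : (fun y : Fin n → ℝ => ∏ j, φ j (y j))
      = fun y => φ i (y i) * ∏ j ∈ univ.erase i, φ j (y j) := by
    funext y
    rw [Finset.mul_prod_erase univ (fun j => φ j (y j)) (mem_univ i)]
  have : pd i (fun y : Fin n → ℝ => ∏ j, φ j (y j))
      = fun y => deriv (φ i) (y i) * ∏ j ∈ univ.erase i, φ j (y j) := by
    funext y
    rw [e]
    exact pd_prod φ (φ i) i y
  rw [this]
  exact pd_prod φ (deriv (φ i)) i x

lemma differentiable_deriv_of_contDiff_two (φ : ℝ → ℝ) (h2 : ContDiff ℝ 2 φ) :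
    Differentiable ℝ (deriv φ) := by
  have : ContDiff ℝ (1 + 1) φ := by
    have e : ((1 : WithTop ℕ∞) + 1) = 2 := by norm_num
    rw [e]; exact h2
  rw [contDiff_succ_iff_deriv] at this
  exact this.2.2.differentiable (by norm_num)

lemma deriv_zero_of_concave_pos (φ : ℝ → ℝ) (h2 : ContDiff ℝ 2 φ) (hpos : ∀ t, 0 < φ t)
    (hcc : ∀ t, deriv (deriv φ) t ≤ 0) : ∀ t, deriv φ t = 0 := by
  have hd : Differentiable ℝ φ := h2.differentiable (by norm_num)
  have hd' : Differentiable ℝ (deriv φ) := differentiable_deriv_of_contDiff_two φ h2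
  have hanti : Antitone (deriv φ) := antitone_of_deriv_nonpos hd' hcc
  have tangent : ∀ a x, φ x ≤ φ a + deriv φ a * (x - a) := by
    intro a x
    rcases lt_trichotomy x a with h | h | h
    · obtain ⟨ξ, hξ, hξ'⟩ := exists_deriv_eq_slope φ h hd.continuous.continuousOn
        (hd.differentiableOn)
      have h1 : deriv φ a ≤ deriv φ ξ := hanti hξ.2.le
      have h2 : 0 < a - x := by linarith
      rw [eq_div_iff h2.ne'] at hξ'
      nlinarith
    · subst h; simp
    · obtain ⟨ξ, hξ, hξ'⟩ := exists_deriv_eq_slope φ h hd.continuous.continuousOn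
        (hd.differentiableOn)
      have h1 : deriv φ ξ ≤ deriv φ a := hanti hξ.1.le
      have h2 : 0 < x - a := by linarith
      rw [eq_div_iff h2.ne'] at hξ'
      nlinarith
  intro a
  by_contra hne
  have h1 := tangent a (a - φ a / deriv φ a)
  have h2 : φ a + deriv φ a * (a - φ a / deriv φ a - a) = 0 := by
    field_simp
    ring
  rw [h2] at h1
  exact absurd (hpos _) (not_lt.mpr h1)

lemma quadratic_of_deriv2_const (f : ℝ → ℝ) (hf : ContDiff ℝ 2 f) (k : ℝ)
    (h : ∀ t, deriv (deriv f) t = k) :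
    ∀ t, f t = f 0 + deriv f 0 * t + k / 2 * t ^ 2 := by
  have hd : Differentiable ℝ f := hf.differentiable (by norm_num)
  have hd' : Differentiable ℝ (deriv f) := differentiable_deriv_of_contDiff_two f hf
  have h1 : ∀ t, deriv f t = deriv f 0 + k * t := by
    intro t
    have hdiff : Differentiable ℝ (fun s => deriv f s - k * s) :=
      hd'.sub ((differentiable_const k).mul differentiable_id)
    have hz : ∀ s, deriv (fun s => deriv f s - k * s) s = 0 := by
      intro s
      have : HasDerivAt (fun s => deriv f s - k * s) (deriv (deriv f) s - k * 1) s :=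
        (hd' s).hasDerivAt.sub ((hasDerivAt_id s).const_mul k)
      rw [this.deriv, h s]; ring
    have := is_const_of_deriv_eq_zero hdiff hz t 0
    linarith
  intro t
  have hdiff : Differentiable ℝ (fun s => f s - (deriv f 0 * s + k / 2 * s ^ 2)) :=
    hd.sub (((differentiable_const _).mul differentiable_id).add
      ((differentiable_const _).mul (differentiable_id.pow 2)))
  have hz : ∀ s, deriv (fun s => f s - (deriv f 0 * s + k / 2 * s ^ 2)) s = 0 := by
    intro s
    have : HasDerivAt (fun s => f s - (deriv f 0 * s + k / 2 * s ^ 2))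
        (deriv f s - (deriv f 0 * 1 + k / 2 * (2 * s ^ 1 * 1))) s := by
      apply (hd s).hasDerivAt.sub
      apply ((hasDerivAt_id s).const_mul _).add
      apply HasDerivAt.const_mul
      exact_mod_cast (hasDerivAt_id s).pow 2
    rw [this.deriv, h1 s]; ring
  have := is_const_of_deriv_eq_zero hdiff hz t 0
  nlinarith


/-- The affine maximal equation (AM) on all of `ℝ^n`:
`∑_{i,j} U^{ij} ∂_{ij} w = 0` with `U = adj(D²u) = det(D²u) (D²u)⁻¹` and
`w = (det D²u)^{-(n+1)/(n+2)}`. -/
def AffineMaximal (u : (Fin n → ℝ) → ℝ) : Prop :=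
  ∀ x, ∑ i, ∑ j, (hess u x).adjugate i j *
    hess (fun y => ((hess u y).det) ^ (-((n : ℝ) + 1) / ((n : ℝ) + 2))) x i j = 0

/-- **Affine Bernstein theorem for entire additively separable graphs, in every dimension.** -/
theorem result (n : ℕ) (f : Fin n → ℝ → ℝ) (hf : ∀ i, ContDiff ℝ 4 (f i))
    (hpos : ∀ x, (hess (fun y : Fin n → ℝ => ∑ i, f i (y i)) x).PosDef)
    (hAM : AffineMaximal (fun y : Fin n → ℝ => ∑ i, f i (y i))) :
    ∃ (A : Matrix (Fin n) (Fin n) ℝ) (b : Fin n → ℝ) (c : ℝ), A.PosDef ∧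
      ∀ x : Fin n → ℝ, ∑ i, f i (x i) = (1 / 2) * (x ⬝ᵥ A.mulVec x) + b ⬝ᵥ x + c := by
  classical
  set e : ℝ := -((n : ℝ) + 1) / ((n : ℝ) + 2) with he
  have he0 : e ≠ 0 := by
    rw [he]
    have h1 : (0 : ℝ) < (n : ℝ) + 1 := by positivity
    have h2 : (0 : ℝ) < (n : ℝ) + 2 := by positivity
    apply div_ne_zero
    · linarith
    · exact h2.ne'
  set g : Fin n → ℝ → ℝ := fun i => deriv (deriv (f i)) with hg
  have hH : ∀ x, hess (fun y : Fin n → ℝ => ∑ i, f i (y i)) x
      = Matrix.diagonal (fun i => g i (x i)) := hess_sum f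
  have gpos : ∀ i t, 0 < g i t := by
    intro i t
    have h1 := hpos (Function.update 0 i t)
    rw [hH, Matrix.posDef_diagonal_iff] at h1
    have h2 := h1 i
    simpa using h2
  have gC2 : ∀ i, ContDiff ℝ 2 (g i) := by
    intro i
    have h4 : ContDiff ℝ (2 + (2 : ℕ)) (f i) := by
      have e4 : ((2 : WithTop ℕ∞) + (2 : ℕ)) = 4 := by norm_num
      rw [e4]; exact hf i
    have := ContDiff.iterate_deriv' 2 2 h4
    simpa using this
  set φ : Fin n → ℝ → ℝ := fun i s => (g i s) ^ e with hφ
  have φpos : ∀ i t, 0 < φ i t := fun i t => Real.rpow_pos_of_pos (gpos i t) e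
  have φC2 : ∀ i, ContDiff ℝ 2 (φ i) := fun i =>
    (gC2 i).rpow_const_of_ne (fun x => (gpos i x).ne')
  have hw : (fun y : Fin n → ℝ => ((hess (fun y : Fin n → ℝ => ∑ i, f i (y i)) y).det) ^ e)
      = fun y => ∏ j, φ j (y j) := by
    funext y
    rw [hH, Matrix.det_diagonal, ← Real.finsetProd_rpow _ _ (fun i _ => (gpos i (y i)).le)]
  set ψ : Fin n → ℝ → ℝ := fun i t => deriv (deriv (φ i)) t / (g i t * φ i t) with hψ
  have key : ∀ x : Fin n → ℝ, ∑ i, ψ i (x i) = 0 := by
    intro x
    have h1 := hAM x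
    rw [hw, hH, Matrix.adjugate_diagonal] at h1
    have h2 : ∀ i, ∑ j, (Matrix.diagonal fun i => ∏ j ∈ univ.erase i, g j (x j)) i j *
        hess (fun y : Fin n → ℝ => ∏ j, φ j (y j)) x i j
        = ψ i (x i) * ∏ j, (g j (x j) * φ j (x j)) := by
      intro i
      have : ∀ j, (Matrix.diagonal fun i => ∏ j ∈ univ.erase i, g j (x j)) i j *
          hess (fun y : Fin n → ℝ => ∏ j, φ j (y j)) x i j
          = if i = j then (∏ j ∈ univ.erase i, g j (x j)) *
            hess (fun y : Fin n → ℝ => ∏ j, φ j (y j)) x i i else 0 := by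
        intro j
        rw [Matrix.diagonal_apply]
        split_ifs with h
        · subst h; rfl
        · simp
      simp_rw [this]
      rw [Finset.sum_ite_eq, if_pos (mem_univ i), hess_prod_diag]
      rw [← Finset.mul_prod_erase univ (fun j => g j (x j) * φ j (x j)) (mem_univ i),
        Finset.prod_mul_distrib]
      have a1 := (gpos i (x i)).ne'
      have a2 := (φpos i (x i)).ne'
      simp only [hψ]
      field_simp
    simp_rw [h2] at h1
    rw [← Finset.sum_mul] at h1
    have hP : (∏ j, (g j (x j) * φ j (x j))) ≠ 0 := by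
      apply Finset.prod_ne_zero_iff.mpr
      intro j _
      exact (mul_pos (gpos j (x j)) (φpos j (x j))).ne'
    exact (mul_eq_zero.mp h1).resolve_right hP
  have hconst : ∀ i t, ψ i t = ψ i 0 := by
    intro i t
    have h1 := key (Function.update 0 i t)
    have h2 := key 0
    rw [← Finset.add_sum_erase univ _ (mem_univ i)] at h1 h2
    have h3 : ∑ j ∈ univ.erase i, ψ j ((Function.update (0 : Fin n → ℝ) i t) j)
        = ∑ j ∈ univ.erase i, ψ j ((0 : Fin n → ℝ) j) := by
      apply Finset.sum_congr rfl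
      intro j hj
      rw [Function.update_of_ne (Finset.ne_of_mem_erase hj)]
    rw [h3] at h1
    simp only [Function.update_self, Pi.zero_apply] at h1 h2
    linarith
  have hφ'' : ∀ i t, deriv (deriv (φ i)) t = ψ i 0 * (g i t * φ i t) := by
    intro i t
    rw [← hconst i t]
    simp only [hψ]
    have := (mul_pos (gpos i t) (φpos i t)).ne'
    rw [div_mul_cancel₀ _ this]
  have hle : ∀ i, ψ i 0 ≤ 0 → ∀ t, deriv (φ i) t = 0 := by
    intro i hi
    apply deriv_zero_of_concave_pos (φ i) (φC2 i) (φpos i)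
    intro t
    rw [hφ'' i t]
    exact mul_nonpos_of_nonpos_of_nonneg hi (mul_pos (gpos i t) (φpos i t)).le
  have hnonneg : ∀ i, 0 ≤ ψ i 0 := by
    intro i
    by_contra hneg
    push Not at hneg
    have h1 := hle i hneg.le
    have h2 : deriv (φ i) = fun _ => 0 := funext h1
    have h3 : ψ i 0 = 0 := by
      simp only [hψ]
      rw [h2]
      simp
    linarith
  have hzero : ∀ i, ψ i 0 = 0 := by
    have h1 := key 0
    simp only [Pi.zero_apply] at h1
    have := (Finset.sum_eq_zero_iff_of_nonneg (fun i _ => hnonneg i)).mp h1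
    intro i
    exact this i (mem_univ i)
  have gconst : ∀ i t, g i t = g i 0 := by
    intro i t
    have h1 := hle i (hzero i).le
    have h2 : φ i t = φ i 0 :=
      is_const_of_deriv_eq_zero ((φC2 i).differentiable (by norm_num)) h1 t 0
    exact Real.rpow_left_injOn he0 (gpos i t).le (gpos i 0).le h2
  have fquad : ∀ i t, f i t = f i 0 + deriv (f i) 0 * t + g i 0 / 2 * t ^ 2 := by
    intro i
    apply quadratic_of_deriv2_const (f i) ((hf i).of_le (by norm_num)) (g i 0)
    intro t
    exact gconst i t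
  refine ⟨Matrix.diagonal (fun i => g i 0), fun i => deriv (f i) 0, ∑ i, f i 0, ?_, ?_⟩
  · rw [Matrix.posDef_diagonal_iff]
    intro i
    exact gpos i 0
  · intro x
    simp only [Matrix.mulVec_diagonal, dotProduct]
    rw [Finset.mul_sum, ← Finset.sum_add_distrib, ← Finset.sum_add_distrib]
    apply Finset.sum_congr rfl
    intro i _
    rw [fquad i (x i)]
    ring

end Vale.Agent.Results.P252.SeparableBernstein
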